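import Mathlib

/-!
# General convex bodies (P243): LEMMA S, STEP 3 (two supporting half-spaces at a sharp end)

Generic in a complete real inner product space `E` (no coordinates, no dimension hypothesis).

* `support_of_line`: a line `p + t • d` that misses the interior of a convex set `K` with nonempty
  interior lies in a supporting hyperplane: there is a unit `ξ` with `⟪ξ, d⟫ = 0` and
  `⟪ξ, y - p⟫ ≤ 0` for all `y ∈ K` (geometric Hahn-Banach + Riesz).
* `step3_gram`: for unit `ξ1, ξ2` and an orthonormal pair `w, u`,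
  `(⟪ξ1,w⟫ ⟪ξ2,u⟫ - ⟪ξ1,u⟫ ⟪ξ2,w⟫)^2 ≤ 1 - ⟪ξ1,ξ2⟫^2`.
* `step3_one_slope`: one slope `sg`: if every point `e0 + t • w + z • u` of `K` has
  `z ≤ h + sg * t`, there is a unit `ξ` with `⟪ξ, w⟫ = - sg * ⟪ξ, u⟫`, `⟪ξ, y - ehat⟫ ≤ 0` on `K`
  (`ehat = e0 + h • u`) and `ρ / (4 R (1 + |sg|)) ≤ |⟪ξ, u⟫|`.
* `sharp_of_two_slopes`: two slopes `sg1, sg2` give two such unit normals with
  `(|sg1 - sg2| * (ρ / (4 R (1 + |sg1|))) * (ρ / (4 R (1 + |sg2|))))^2 ≤ 1 - ⟪ξ1, ξ2⟫^2`.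
-/

namespace Vale.Agent.H93.GenK

variable {E : Type*} [NormedAddCommGroup E] [InnerProductSpace ℝ E]

/-- Bessel's inequality for an orthonormal pair. -/
theorem step3_bessel (u w ξ : E) (hu : ‖u‖ = 1) (hw : ‖w‖ = 1) (huw : inner ℝ u w = 0) :
    (inner ℝ ξ w) ^ 2 + (inner ℝ ξ u) ^ 2 ≤ ‖ξ‖ ^ 2 := by
  have hww : inner ℝ w w = (1 : ℝ) := by rw [real_inner_self_eq_norm_sq, hw]; norm_num
  have huu : inner ℝ u u = (1 : ℝ) := by rw [real_inner_self_eq_norm_sq, hu]; norm_num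
  have hwu : inner ℝ w u = (0 : ℝ) := by rw [real_inner_comm]; exact huw
  have hwξ : inner ℝ w ξ = inner ℝ ξ w := real_inner_comm _ _
  have huξ : inner ℝ u ξ = inner ℝ ξ u := real_inner_comm _ _
  have key : inner ℝ (ξ - inner ℝ ξ w • w - inner ℝ ξ u • u)
      (ξ - inner ℝ ξ w • w - inner ℝ ξ u • u)
      = inner ℝ ξ ξ - (inner ℝ ξ w) ^ 2 - (inner ℝ ξ u) ^ 2 := by
    simp only [inner_sub_left, inner_sub_right, real_inner_smul_left, real_inner_smul_right,
      hww, huu, hwu, huw, hwξ, huξ]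
    ring
  have h0 := real_inner_self_nonneg (x := ξ - inner ℝ ξ w • w - inner ℝ ξ u • u)
  rw [key, real_inner_self_eq_norm_sq] at h0
  linarith

/-- Lagrange-type inequality: the `w,u`-minor of two unit vectors is bounded by the sine of
their angle. -/
theorem step3_gram (u w ξ1 ξ2 : E) (hu : ‖u‖ = 1) (hw : ‖w‖ = 1) (huw : inner ℝ u w = 0)
    (h1 : ‖ξ1‖ = 1) (h2 : ‖ξ2‖ = 1) :
    (inner ℝ ξ1 w * inner ℝ ξ2 u - inner ℝ ξ1 u * inner ℝ ξ2 w) ^ 2
      ≤ 1 - (inner ℝ ξ1 ξ2) ^ 2 := by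
  have hb1 := step3_bessel u w ξ1 hu hw huw
  have hb2 := step3_bessel u w (ξ2 - inner ℝ ξ1 ξ2 • ξ1) hu hw huw
  have h11 : inner ℝ ξ1 ξ1 = (1 : ℝ) := by rw [real_inner_self_eq_norm_sq, h1]; norm_num
  have h22 : inner ℝ ξ2 ξ2 = (1 : ℝ) := by rw [real_inner_self_eq_norm_sq, h2]; norm_num
  have h21 : inner ℝ ξ2 ξ1 = inner ℝ ξ1 ξ2 := real_inner_comm _ _
  have hn : ‖ξ2 - inner ℝ ξ1 ξ2 • ξ1‖ ^ 2 = 1 - (inner ℝ ξ1 ξ2) ^ 2 := by
    rw [← real_inner_self_eq_norm_sq]
    simp only [inner_sub_left, inner_sub_right, real_inner_smul_left, real_inner_smul_right,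
      h11, h22, h21]
    ring
  rw [hn] at hb2
  rw [h1] at hb1
  simp only [inner_sub_left, real_inner_smul_left] at hb2
  clear hn h11 h22 h21 h1 h2
  generalize inner ℝ ξ1 w = x1 at *
  generalize inner ℝ ξ1 u = y1 at *
  generalize inner ℝ ξ2 w = x2 at *
  generalize inner ℝ ξ2 u = y2 at *
  generalize inner ℝ ξ1 ξ2 = g at *
  have hA : 0 ≤ (x2 - g * x1) ^ 2 + (y2 - g * y1) ^ 2 := by positivity
  have hid : (x1 * y2 - y1 * x2) ^ 2 + (x1 * (x2 - g * x1) + y1 * (y2 - g * y1)) ^ 2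
      = (x1 ^ 2 + y1 ^ 2) * ((x2 - g * x1) ^ 2 + (y2 - g * y1) ^ 2) := by ring
  have hsq : 0 ≤ (x1 * (x2 - g * x1) + y1 * (y2 - g * y1)) ^ 2 := sq_nonneg _
  have hprod : (x1 ^ 2 + y1 ^ 2) * ((x2 - g * x1) ^ 2 + (y2 - g * y1) ^ 2)
      ≤ 1 * ((x2 - g * x1) ^ 2 + (y2 - g * y1) ^ 2) :=
    mul_le_mul_of_nonneg_right (by linarith) hA
  linarith

variable [CompleteSpace E]

/-- **Hahn-Banach for a line.** A line missing the interior of a convex set with nonempty
interior lies in a supporting hyperplane of the set. -/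
theorem support_of_line (K : Set E) (hK : Convex ℝ K) (hint : (interior K).Nonempty) (p d : E)
    (hline : ∀ t : ℝ, p + t • d ∉ interior K) :
    ∃ ξ : E, ‖ξ‖ = 1 ∧ inner ℝ ξ d = 0 ∧ ∀ y ∈ K, inner ℝ ξ (y - p) ≤ 0 := by
  have hconv : Convex ℝ (interior K) := hK.interior
  have hlineconv : Convex ℝ (Set.range fun t : ℝ => p + t • d) := by
    rintro _ ⟨t1, rfl⟩ _ ⟨t2, rfl⟩ a b _ _ hab
    refine ⟨a * t1 + b * t2, ?_⟩
    obtain rfl : b = 1 - a := by linarith
    show p + (a * t1 + (1 - a) * t2) • d = a • (p + t1 • d) + (1 - a) • (p + t2 • d)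
    module
  have hdisj : Disjoint (interior K) (Set.range fun t : ℝ => p + t • d) := by
    rw [Set.disjoint_right]
    rintro _ ⟨t, rfl⟩
    exact hline t
  obtain ⟨f, s, hf1, hf2⟩ := geometric_hahn_banach_open hconv isOpen_interior hlineconv hdisj
  have hfd : f d = 0 := by
    by_contra hne
    have h := hf2 (p + ((s - 1 - f p) / f d) • d) ⟨_, rfl⟩
    rw [map_add, map_smul, smul_eq_mul, div_mul_cancel₀ _ hne] at h
    linarith
  have hfp : s ≤ f p := by
    have h := hf2 (p + (0 : ℝ) • d) ⟨0, rfl⟩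
    rw [zero_smul, add_zero] at h
    exact h
  have hK' : ∀ y ∈ K, f y ≤ f p := by
    intro y hy
    have hy' : y ∈ closure (interior K) := by
      rw [hK.closure_interior_eq_closure_of_nonempty_interior hint]
      exact subset_closure hy
    have hcl : closure (interior K) ⊆ {y | f y ≤ f p} := by
      apply closure_minimal
      · intro a ha
        exact le_of_lt (lt_of_lt_of_le (hf1 a ha) hfp)
      · exact isClosed_le f.continuous continuous_const
    exact hcl hy'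
  obtain ⟨a, ha⟩ := hint
  have hlt : f a < f p := lt_of_lt_of_le (hf1 a ha) hfp
  have hfv : ∀ x, f x = inner ℝ ((InnerProductSpace.toDual ℝ E).symm f) x := by
    intro x
    rw [InnerProductSpace.toDual_symm_apply]
  generalize (InnerProductSpace.toDual ℝ E).symm f = v at hfv
  have hvne : v ≠ 0 := by
    intro h0
    rw [hfv a, hfv p, h0, inner_zero_left, inner_zero_left] at hlt
    exact lt_irrefl _ hlt
  have hvn : 0 < ‖v‖ := norm_pos_iff.2 hvne
  refine ⟨‖v‖⁻¹ • v, ?_, ?_, ?_⟩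
  · rw [norm_smul, norm_inv, norm_norm, inv_mul_cancel₀ hvn.ne']
  · rw [real_inner_smul_left, ← hfv, hfd, mul_zero]
  · intro y hy
    rw [real_inner_smul_left, ← hfv, map_sub]
    have h := hK' y hy
    exact mul_nonpos_of_nonneg_of_nonpos (inv_nonneg.2 hvn.le) (by linarith)

/-- **One slope.** If every point `e0 + t • w + z • u` of `K` has `z ≤ h + sg * t`, then `K` has
a supporting half-space at `ehat = e0 + h • u` whose unit normal `ξ` is orthogonal to `w + sg • u`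
and has a `u`-component of size at least `ρ / (4 R (1 + |sg|))`. -/
theorem step3_one_slope (K : Set E) (hK : Convex ℝ K) (c : E) (ρ R : ℝ) (hρ : 0 < ρ)
    (hball : Metric.closedBall c ρ ⊆ K) (u w e0 : E) (hu : ‖u‖ = 1) (hw : ‖w‖ = 1)
    (huw : inner ℝ u w = 0) (h sg : ℝ)
    (hdist : ‖e0 + h • u - c‖ ≤ 2 * R)
    (hplane : ‖(c - e0) - inner ℝ (c - e0) w • w - inner ℝ (c - e0) u • u‖ ≤ ρ / 2)
    (hsec : ∀ t z : ℝ, e0 + t • w + z • u ∈ K → z ≤ h + sg * t) :
    ∃ ξ : E, ‖ξ‖ = 1 ∧ inner ℝ ξ w = - sg * inner ℝ ξ u ∧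
      (∀ y ∈ K, inner ℝ ξ (y - (e0 + h • u)) ≤ 0) ∧
      0 < R ∧ ρ / (4 * R * (1 + |sg|)) ≤ |inner ℝ ξ u| := by
  have hcK : c ∈ interior K := by
    have hsub : Metric.ball c ρ ⊆ K := fun x hx => hball (Metric.ball_subset_closedBall hx)
    exact interior_maximal hsub Metric.isOpen_ball (Metric.mem_ball_self hρ)
  have hline : ∀ t : ℝ, (e0 + h • u) + t • (w + sg • u) ∉ interior K := by
    intro t hmem
    obtain ⟨ε, hε, hsub⟩ := Metric.isOpen_iff.1 isOpen_interior _ hmem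
    have hin : (e0 + h • u) + t • (w + sg • u) + (ε / 2) • u ∈ K := by
      apply interior_subset
      apply hsub
      rw [Metric.mem_ball, dist_eq_norm, add_sub_cancel_left, norm_smul, hu, Real.norm_eq_abs,
        abs_of_pos (by linarith : 0 < ε / 2), mul_one]
      linarith
    have heq : (e0 + h • u) + t • (w + sg • u) + (ε / 2) • u
        = e0 + t • w + (h + sg * t + ε / 2) • u := by module
    rw [heq] at hin
    have := hsec t _ hin
    linarith
  obtain ⟨ξ, hξ, hξd, hξK⟩ := support_of_line K hK ⟨c, hcK⟩ _ _ hline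
  have hxy : inner ℝ ξ w = - sg * inner ℝ ξ u := by
    rw [inner_add_right, real_inner_smul_right] at hξd
    linarith
  -- the point `c + ρ ξ` of `K`
  have hpt : c + ρ • ξ ∈ K := by
    apply hball
    rw [Metric.mem_closedBall, dist_eq_norm, add_sub_cancel_left, norm_smul, hξ,
      Real.norm_eq_abs, abs_of_pos hρ, mul_one]
  have h1 := hξK _ hpt
  have hξξ : inner ℝ ξ ξ = (1 : ℝ) := by rw [real_inner_self_eq_norm_sq, hξ]; norm_num
  -- `q = ehat - c`
  have hq : ρ ≤ inner ℝ ξ (e0 + h • u - c) := by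
    have e : c + ρ • ξ - (e0 + h • u) = ρ • ξ - (e0 + h • u - c) := by abel
    rw [e, inner_sub_right, real_inner_smul_right, hξξ] at h1
    linarith
  have hnq : ‖(e0 + h • u - c) - inner ℝ (e0 + h • u - c) w • w
      - inner ℝ (e0 + h • u - c) u • u‖ ≤ ρ / 2 := by
    have hwu : inner ℝ w u = (0 : ℝ) := by rw [real_inner_comm]; exact huw
    have hww : inner ℝ w w = (1 : ℝ) := by rw [real_inner_self_eq_norm_sq, hw]; norm_num
    have huu : inner ℝ u u = (1 : ℝ) := by rw [real_inner_self_eq_norm_sq, hu]; norm_num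
    have e : (e0 + h • u - c) - inner ℝ (e0 + h • u - c) w • w
        - inner ℝ (e0 + h • u - c) u • u
        = - ((c - e0) - inner ℝ (c - e0) w • w - inner ℝ (c - e0) u • u) := by
      have ew : inner ℝ (e0 + h • u - c) w = - inner ℝ (c - e0) w := by
        have : e0 + h • u - c = h • u - (c - e0) := by abel
        rw [this, inner_sub_left, real_inner_smul_left, huw]
        ring
      have eu : inner ℝ (e0 + h • u - c) u = h - inner ℝ (c - e0) u := by
        have : e0 + h • u - c = h • u - (c - e0) := by abel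
        rw [this, inner_sub_left, real_inner_smul_left, huu]
        ring
      rw [ew, eu]
      module
    rw [e, norm_neg]
    exact hplane
  set q : E := e0 + h • u - c with hqdef
  set n : E := q - inner ℝ q w • w - inner ℝ q u • u with hndef
  have hqn : q = inner ℝ q w • w + inner ℝ q u • u + n := by
    rw [hndef]; abel
  have hA : |inner ℝ q w| ≤ 2 * R := by
    have := abs_real_inner_le_norm q w
    rw [hw, mul_one] at this
    linarith
  have hB : |inner ℝ q u| ≤ 2 * R := by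
    have := abs_real_inner_le_norm q u
    rw [hu, mul_one] at this
    linarith
  have hn' : inner ℝ ξ n ≤ ρ / 2 := by
    have h2 := real_inner_le_norm ξ n
    rw [hξ, one_mul] at h2
    linarith
  have hmain : ρ / 2 ≤ inner ℝ ξ u * (inner ℝ q u - sg * inner ℝ q w) := by
    have h3 : inner ℝ ξ q = inner ℝ q w * inner ℝ ξ w + inner ℝ q u * inner ℝ ξ u
        + inner ℝ ξ n := by
      conv_lhs => rw [hqn]
      rw [inner_add_right, inner_add_right, real_inner_smul_right, real_inner_smul_right]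
    rw [h3, hxy] at hq
    nlinarith
  have hbd : inner ℝ ξ u * (inner ℝ q u - sg * inner ℝ q w)
      ≤ |inner ℝ ξ u| * ((1 + |sg|) * (2 * R)) := by
    have h4 : inner ℝ ξ u * (inner ℝ q u - sg * inner ℝ q w)
        ≤ |inner ℝ ξ u * (inner ℝ q u - sg * inner ℝ q w)| := le_abs_self _
    rw [abs_mul] at h4
    have h5 : |inner ℝ q u - sg * inner ℝ q w| ≤ (1 + |sg|) * (2 * R) := by
      have h6 : |inner ℝ q u - sg * inner ℝ q w| ≤ |inner ℝ q u| + |sg * inner ℝ q w| :=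
        abs_sub _ _
      rw [abs_mul] at h6
      have h7 : |sg| * |inner ℝ q w| ≤ |sg| * (2 * R) :=
        mul_le_mul_of_nonneg_left hA (abs_nonneg _)
      nlinarith
    have h8 := mul_le_mul_of_nonneg_left h5 (abs_nonneg (inner ℝ ξ u))
    linarith
  have hsgpos : 0 < 1 + |sg| := by positivity
  have hRpos : 0 < R := by
    by_contra hR
    push Not at hR
    have h9 : |inner ℝ ξ u| * ((1 + |sg|) * (2 * R)) ≤ 0 := by
      apply mul_nonpos_of_nonneg_of_nonpos (abs_nonneg _)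
      nlinarith
    linarith
  refine ⟨ξ, hξ, hxy, hξK, hRpos, ?_⟩
  rw [div_le_iff₀ (by positivity)]
  nlinarith

/-- **LEMMA S, STEP 3.** Two slopes `sg1, sg2` bounding the section of `K` in the plane
`e0 + ℝ w + ℝ u` from above give two supporting half-spaces of `K` at `ehat = e0 + h • u` whose
unit normals are quantitatively non-parallel. -/
theorem sharp_of_two_slopes (K : Set E) (hK : Convex ℝ K) (c : E) (ρ R : ℝ) (hρ : 0 < ρ)
    (hball : Metric.closedBall c ρ ⊆ K) (u w e0 : E) (hu : ‖u‖ = 1) (hw : ‖w‖ = 1)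
    (huw : inner ℝ u w = 0) (h sg1 sg2 : ℝ)
    (hdist : ‖e0 + h • u - c‖ ≤ 2 * R)
    (hplane : ‖(c - e0) - inner ℝ (c - e0) w • w - inner ℝ (c - e0) u • u‖ ≤ ρ / 2)
    (h1 : ∀ t z : ℝ, e0 + t • w + z • u ∈ K → z ≤ h + sg1 * t)
    (h2 : ∀ t z : ℝ, e0 + t • w + z • u ∈ K → z ≤ h + sg2 * t) :
    ∃ ξ1 ξ2 : E, ‖ξ1‖ = 1 ∧ ‖ξ2‖ = 1 ∧
      (∀ y ∈ K, inner ℝ ξ1 (y - (e0 + h • u)) ≤ 0) ∧
      (∀ y ∈ K, inner ℝ ξ2 (y - (e0 + h • u)) ≤ 0) ∧
      (|sg1 - sg2| * (ρ / (4 * R * (1 + |sg1|))) * (ρ / (4 * R * (1 + |sg2|)))) ^ 2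
        ≤ 1 - (inner ℝ ξ1 ξ2) ^ 2 := by
  obtain ⟨ξ1, hξ1, hx1, hK1, hR, hy1⟩ :=
    step3_one_slope K hK c ρ R hρ hball u w e0 hu hw huw h sg1 hdist hplane h1
  obtain ⟨ξ2, hξ2, hx2, hK2, -, hy2⟩ :=
    step3_one_slope K hK c ρ R hρ hball u w e0 hu hw huw h sg2 hdist hplane h2
  refine ⟨ξ1, ξ2, hξ1, hξ2, hK1, hK2, ?_⟩
  have hg := step3_gram u w ξ1 ξ2 hu hw huw hξ1 hξ2
  rw [hx1, hx2] at hg
  have hm1 : 0 ≤ ρ / (4 * R * (1 + |sg1|)) := by positivity
  have hm2 : 0 ≤ ρ / (4 * R * (1 + |sg2|)) := by positivity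
  have e : (-sg1 * inner ℝ ξ1 u * inner ℝ ξ2 u - inner ℝ ξ1 u * (-sg2 * inner ℝ ξ2 u)) ^ 2
      = (|sg1 - sg2| * |inner ℝ ξ1 u| * |inner ℝ ξ2 u|) ^ 2 := by
    rw [mul_pow, mul_pow, sq_abs, sq_abs, sq_abs]
    ring
  rw [e] at hg
  refine le_trans ?_ hg
  apply pow_le_pow_left₀ (by positivity)
  have ha : 0 ≤ |sg1 - sg2| := abs_nonneg _
  calc |sg1 - sg2| * (ρ / (4 * R * (1 + |sg1|))) * (ρ / (4 * R * (1 + |sg2|)))
      ≤ |sg1 - sg2| * |inner ℝ ξ1 u| * (ρ / (4 * R * (1 + |sg2|))) := by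
        apply mul_le_mul_of_nonneg_right _ hm2
        exact mul_le_mul_of_nonneg_left hy1 ha
    _ ≤ |sg1 - sg2| * |inner ℝ ξ1 u| * |inner ℝ ξ2 u| := by
        apply mul_le_mul_of_nonneg_left hy2
        positivity

end Vale.Agent.H93.GenK
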